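import Vale.Agent.P007.Topo

open Matrix MeasureTheory Topology Set Filter CompactlySupported

namespace Vale.Agent.P007

lemma row_mem_rowLattice {n : ℕ} (g : SL n) (i : Fin n) : mat g i ∈ rowLattice g := by
  refine ⟨Pi.single i 1, ?_⟩
  have : (fun k => ((Pi.single i (1 : ℤ) : Fin n → ℤ) k : ℝ)) = Pi.single i (1 : ℝ) := by
    ext k
    by_cases h : k = i
    · subst h; simp
    · simp [Pi.single_eq_of_ne h]
  rw [this, Matrix.single_one_vecMul]
  rfl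

lemma exists_int_matrix {n : ℕ} (g : SL n) (d : Fin n → ℝ)
    (h : ∀ y ∈ rowLattice g, (fun j => y j * d j) ∈ rowLattice g) :
    ∃ M : Matrix (Fin n) (Fin n) ℤ,
      M.map (fun z : ℤ => (z : ℝ)) * mat g = mat g * diagonal d := by
  choose v hv using fun i => h _ (row_mem_rowLattice g i)
  refine ⟨Matrix.of v, ?_⟩
  ext i j
  have := congrFun (hv i) j
  rw [Matrix.mul_diagonal, this]
  rfl

lemma exists_int_matrix_of_mk_eq {n : ℕ} {g g' : SL n} (hgg : coset g' = coset g) (d : Fin n → ℝ)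
    (M : Matrix (Fin n) (Fin n) ℤ)
    (hM : M.map (fun z : ℤ => (z : ℝ)) * mat g = mat g * diagonal d) :
    ∃ M' : Matrix (Fin n) (Fin n) ℤ,
      M'.map (fun z : ℤ => (z : ℝ)) * mat g' = mat g' * diagonal d := by
  obtain ⟨γ, ⟨δ, rfl⟩, rfl⟩ := mk_eq_iff.1 hgg
  refine ⟨δ.1 * M * (δ⁻¹).1, ?_⟩
  have e1 : (δ.1 * M * (δ⁻¹).1).map (fun z : ℤ => (z : ℝ)) =
      mat (SpecialLinearGroup.map (n := Fin n) (Int.castRingHom ℝ) δ) *
        M.map (fun z : ℤ => (z : ℝ)) *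
        mat (SpecialLinearGroup.map (n := Fin n) (Int.castRingHom ℝ) δ⁻¹) := by
    have := Matrix.map_mul (L := δ.1 * M) (M := (δ⁻¹).1) (f := Int.castRingHom ℝ)
    have h2 := Matrix.map_mul (L := δ.1) (M := M) (f := Int.castRingHom ℝ)
    rw [h2] at this
    exact this
  rw [e1, map_inv, mat_mul, Matrix.mul_assoc, ← Matrix.mul_assoc (mat _⁻¹), mat_inv_mul,
    Matrix.one_mul, Matrix.mul_assoc, hM, Matrix.mul_assoc]

lemma packet_stable {n : ℕ} {K : Type} [Field K] (O : Subring K) (σ : Fin n ≃ (K →+* ℝ))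
    {x : X n} (hx : x ∈ packet O σ) {α : K} (hα : α ∈ O) :
    ∃ g : SL n, x = coset g ∧
      ∀ y ∈ rowLattice g, (fun j => y j * σ j α) ∈ rowLattice g := by
  obtain ⟨g, I, c, w, u, hxg, hprop, -, -, -, -, hlat⟩ := hx
  refine ⟨g, hxg, ?_⟩
  intro y hy
  rw [hlat] at hy ⊢
  obtain ⟨b, hb, rfl⟩ := hy
  have hαI : α ∈ {a : K | ∀ b ∈ I, a * b ∈ I} := by
    rw [hprop]; exact hα
  refine ⟨α * b, hαI b hb, ?_⟩
  ext j
  simp only [map_mul]
  ring

theorem exists_test_function (n : ℕ) (hn : 1 ≤ n) (B : ℝ) : ∃ f : C_c(X n, ℝ),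
    (∀ x, 0 ≤ f x) ∧ (∀ m : Measure (X n), IsInvProb m → 0 < ∫ x, f x ∂m) ∧
    ∀ (K : Type) [Field K] (O : Subring K) (σ : Fin n ≃ (K →+* ℝ)) (α : K), α ∈ O →
      (∀ z : ℤ, α ≠ z) → (∀ j, |σ j α| ≤ B) → ∀ x ∈ packet O σ, f x = 0 := by
  obtain ⟨U, hUo, ⟨g0, hg0⟩, hU⟩ := exists_good_open n B
  have hWo : IsOpen (coset '' U) := (isOpenQuotientMap_mk n).isOpenMap U hUo
  obtain ⟨f, hf1, hf0, hfc, hf01⟩ := exists_continuous_one_zero_of_isCompact
    (isCompact_singleton (x := coset g0)) hWo.isClosed_compl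
    (by
      rw [Set.disjoint_compl_right_iff_subset, singleton_subset_iff]
      exact ⟨g0, hg0, rfl⟩)
  refine ⟨⟨f, hfc⟩, fun x => (hf01 x).1, ?_, ?_⟩
  · intro m hm
    have := isOpenPos_of_isInvProb hm
    have := hm.1
    have h1 : f (coset g0) = 1 := hf1 (mem_singleton _)
    exact f.continuous.integral_pos_of_hasCompactSupport_nonneg_nonzero hfc
      (fun x => (hf01 x).1) (x := coset g0) (h1 ▸ one_ne_zero : f (coset g0) ≠ 0)
  · intro K _ O σ α hα hαZ hB x hx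
    apply hf0
    rintro ⟨g', hg', hx'⟩
    obtain ⟨g, hxg, hst⟩ := packet_stable O σ hx hα
    obtain ⟨M, hM⟩ := exists_int_matrix g (fun j => σ j α) hst
    obtain ⟨M', hM'⟩ := exists_int_matrix_of_mk_eq (hx'.trans hxg) _ M hM
    obtain ⟨c, hc⟩ := hU g' hg' _ hB M' hM' ⟨0, hn⟩
    apply hαZ c
    apply (σ ⟨0, hn⟩).injective
    rw [hc, map_intCast]

end Vale.Agent.P007
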