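import Mathlib

open Matrix MeasureTheory

namespace Vale.Agent.P007

/-- `SL_n(ℤ)` as a subgroup of `SL_n(ℝ)`. -/
def Gam (n : ℕ) : Subgroup (SpecialLinearGroup (Fin n) ℝ) :=
  (SpecialLinearGroup.map (n := Fin n) (Int.castRingHom ℝ)).range

/-- `X_n = SL_n(ℤ) \ SL_n(ℝ)`, the right cosets `SL_n(ℤ) g`, with the quotient topology. -/
abbrev X (n : ℕ) : Type :=
  Quotient (MulAction.orbitRel (Gam n) (SpecialLinearGroup (Fin n) ℝ))

/-- The Borel sigma-algebra on `X_n`. -/
instance instMeasX (n : ℕ) : MeasurableSpace (X n) := borel (X n)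

/-- The coset `SL_n(ℤ) g`. -/
def coset {n : ℕ} (g : SpecialLinearGroup (Fin n) ℝ) : X n :=
  Quotient.mk (MulAction.orbitRel (Gam n) (SpecialLinearGroup (Fin n) ℝ)) g

/-- `m` is a Borel probability measure on `X_n` invariant under the right action of `SL_n(ℝ)`:
for every set `S` of cosets and every `h`, the translate `S h` has the same measure as `S`. -/
def IsInvProb {n : ℕ} (m : Measure (X n)) : Prop :=
  IsProbabilityMeasure m ∧
    ∀ (h : SpecialLinearGroup (Fin n) ℝ) (S : Set (X n)), MeasurableSet S →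
      m {x | ∃ g, coset g ∈ S ∧ x = coset (g * h)} = m S

/-- The lattice `ℤ^n g` spanned by the rows of `g`. -/
def rowLattice {n : ℕ} (g : SpecialLinearGroup (Fin n) ℝ) : Set (Fin n → ℝ) :=
  {y | ∃ v : Fin n → ℤ, y = Matrix.vecMul (fun i => (v i : ℝ)) (g : Matrix (Fin n) (Fin n) ℝ)}

/-- `O` is an order of the number field `K`: a subring of `O_K` of full rank. -/
def IsOrder {K : Type} [Field K] [NumberField K] (O : Subring K) : Prop :=
  (∀ a ∈ O, IsIntegral ℤ a) ∧ Submodule.span ℚ (O : Set K) = ⊤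

/-- `|Disc O| = |Disc K| [O_K : O]^2` for a subring `O` of the number field `K`, the index being
that of `O ∩ O_K` in `O_K`. -/
noncomputable def orderDisc {K : Type} [Field K] [NumberField K] (O : Subring K) : ℕ :=
  (NumberField.discr K).natAbs *
    (O.comap (algebraMap (NumberField.RingOfIntegers K) K)).toAddSubgroup.index ^ 2

/-- The union of the orbits `Λ_I w A_n` of the packet of `(O, σ)`: the cosets whose lattice is
`c σ(I) w a` with `I` a proper invertible fractional `O`-ideal, `w` a diagonal sign matrix,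
`a = diag(exp u)` with `∑ u = 0`, and `c > 0` the scalar that makes the covolume one. -/
def packet {n : ℕ} {K : Type} [Field K] (O : Subring K) (σ : Fin n ≃ (K →+* ℝ)) : Set (X n) :=
  {x | ∃ (g : SpecialLinearGroup (Fin n) ℝ) (I : FractionalIdeal (nonZeroDivisors O) K)
      (c : ℝ) (w u : Fin n → ℝ),
      x = coset g ∧
      {a : K | ∀ b ∈ I, a * b ∈ I} = (O : Set K) ∧ (∃ J, I * J = 1) ∧
      0 < c ∧ (∀ j, w j = 1 ∨ w j = -1) ∧ ∑ j, u j = 0 ∧
      rowLattice g = {y | ∃ b ∈ I, y = fun j => c * σ j b * w j * Real.exp (u j)}}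

end Vale.Agent.P007
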