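import Vale.Agent.P007.Defs

open Matrix MeasureTheory Topology Set Filter

namespace Vale.Agent.P007

abbrev SL (n : ℕ) := SpecialLinearGroup (Fin n) ℝ

/-- The underlying matrix. -/
def mat {n : ℕ} (g : SL n) : Matrix (Fin n) (Fin n) ℝ := g.1

lemma mat_mul {n : ℕ} (g h : SL n) : mat (g * h) = mat g * mat h := rfl

lemma mat_one {n : ℕ} : mat (1 : SL n) = 1 := rfl

lemma mat_mul_inv {n : ℕ} (g : SL n) : mat g * mat g⁻¹ = 1 := by
  rw [← mat_mul, mul_inv_cancel, mat_one]

lemma mat_inv_mul {n : ℕ} (g : SL n) : mat g⁻¹ * mat g = 1 := by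
  rw [← mat_mul, inv_mul_cancel, mat_one]

lemma mat_inj {n : ℕ} {g h : SL n} (e : mat g = mat h) : g = h := Subtype.ext e

lemma continuous_mat {n : ℕ} : Continuous (mat : SL n → Matrix (Fin n) (Fin n) ℝ) :=
  continuous_subtype_val

instance instLocCompSL (n : ℕ) : LocallyCompactSpace (SL n) :=
  haveI : LocallyCompactSpace (Matrix (Fin n) (Fin n) ℝ) :=
    inferInstanceAs (LocallyCompactSpace (Fin n → Fin n → ℝ))
  (SpecialLinearGroup.isClosedEmbedding_val (n := Fin n) (R := ℝ)).locallyCompactSpace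

instance instT2SL (n : ℕ) : T2Space (SL n) :=
  (SpecialLinearGroup.isClosedEmbedding_val (n := Fin n) (R := ℝ)).isEmbedding.t2Space

instance instSecSL (n : ℕ) : SecondCountableTopology (SL n) :=
  haveI : SecondCountableTopology (Matrix (Fin n) (Fin n) ℝ) :=
    inferInstanceAs (SecondCountableTopology (Fin n → Fin n → ℝ))
  (SpecialLinearGroup.isClosedEmbedding_val
    (n := Fin n) (R := ℝ)).isEmbedding.secondCountableTopology

lemma isClosedEmbedding_intCast : IsClosedEmbedding (fun z : ℤ => (z : ℝ)) :=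
  Int.isClosedEmbedding_coe_real

lemma finite_int_matrices {n : ℕ} {K : Set (Matrix (Fin n) (Fin n) ℝ)} (hK : IsCompact K) :
    {M : Matrix (Fin n) (Fin n) ℤ | M.map (fun z : ℤ => (z : ℝ)) ∈ K}.Finite := by
  have h : IsClosedEmbedding
      (fun M : Matrix (Fin n) (Fin n) ℤ => M.map (fun z : ℤ => (z : ℝ))) :=
    isClosedEmbedding_intCast.matrix_map
  have h2 := h.isCompact_preimage hK
  exact h2.finite_of_discrete

instance instPropDisc (n : ℕ) : ProperlyDiscontinuousSMul (Gam n) (SL n) := by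
  apply Subgroup.properlyDiscontinuousSMul_of_tendsto_cofinite
  rw [tendsto_def]
  intro s hs
  rw [mem_cocompact] at hs
  obtain ⟨t, ht, hts⟩ := hs
  rw [mem_cofinite]
  have hc : IsCompact ((fun g : SL n => mat g) '' t) :=
    ht.image continuous_subtype_val
  have hfin := finite_int_matrices hc
  have hfin2 := hfin.image (fun M : Matrix (Fin n) (Fin n) ℤ => M.map (fun z : ℤ => (z : ℝ)))
  refine Set.Finite.of_finite_image (f := fun γ : Gam n =>
    ((γ : SL n) : Matrix (Fin n) (Fin n) ℝ)) (hfin2.subset ?_) ?_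
  · rintro _ ⟨γ, hγ, rfl⟩
    obtain ⟨γ, ⟨δ, rfl⟩⟩ := γ
    have hγt : (SpecialLinearGroup.map (n := Fin n) (Int.castRingHom ℝ) δ) ∈ t := by
      by_contra hh
      exact hγ (hts hh)
    refine ⟨(δ : Matrix (Fin n) (Fin n) ℤ), ⟨_, hγt, rfl⟩, rfl⟩
  · intro a _ b _ hab
    exact Subtype.ext (Subtype.ext hab)

instance instT2X (n : ℕ) : T2Space (X n) :=
  inferInstanceAs (T2Space (Quotient (MulAction.orbitRel (Gam n) (SL n))))

lemma isOpenQuotientMap_mk (n : ℕ) : IsOpenQuotientMap (coset : SL n → X n) :=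
  MulAction.isOpenQuotientMap_quotientMk

instance instLocCompX (n : ℕ) : LocallyCompactSpace (X n) :=
  (isOpenQuotientMap_mk n).locallyCompactSpace

instance instBorelX (n : ℕ) : BorelSpace (X n) := ⟨rfl⟩

lemma mk_eq_iff {n : ℕ} {g g' : SL n} : coset g = coset g' ↔ ∃ γ ∈ Gam n, γ * g' = g := by
  refine Quotient.eq.trans ?_
  change g ∈ MulAction.orbit (Gam n) g' ↔ _
  constructor
  · rintro ⟨γ, hγ⟩
    exact ⟨γ, γ.2, hγ⟩
  · rintro ⟨γ, hγ, h⟩
    exact ⟨⟨γ, hγ⟩, h⟩

lemma isOpenPos_of_isInvProb {n : ℕ} {m : Measure (X n)} (hm : IsInvProb m) :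
    m.IsOpenPosMeasure := by
  obtain ⟨hp, hinv⟩ := hm
  constructor
  intro W hW hne h0
  obtain ⟨x, hx⟩ := hne
  obtain ⟨g0, rfl⟩ := (isOpenQuotientMap_mk n).surjective x
  let V : SL n → Set (SL n) := fun h => {g | coset (g * h⁻¹) ∈ W}
  have hVo : ∀ h, IsOpen (V h) := fun h =>
    hW.preimage ((isOpenQuotientMap_mk n).continuous.comp (continuous_id.mul continuous_const))
  obtain ⟨T, hTc, hT⟩ := TopologicalSpace.isOpen_iUnion_countable V hVo
  have hcov : (univ : Set (X n)) ⊆ ⋃ h ∈ T, {x | ∃ g, coset g ∈ W ∧ x = coset (g * h)} := by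
    intro y _
    obtain ⟨g, rfl⟩ := (isOpenQuotientMap_mk n).surjective y
    have : g ∈ ⋃ h, V h := by
      refine mem_iUnion.2 ⟨g0⁻¹ * g, ?_⟩
      simpa [V] using hx
    rw [← hT] at this
    obtain ⟨h, hh, hg⟩ := mem_iUnion₂.1 this
    refine mem_iUnion₂.2 ⟨h, hh, g * h⁻¹, hg, by simp⟩
  have h1 : m (⋃ h ∈ T, {x | ∃ g, coset g ∈ W ∧ x = coset (g * h)}) = 0 := by
    rw [measure_biUnion_null_iff hTc]
    intro h _
    rw [hinv h W hW.measurableSet, h0]
  have h2 := measure_mono_null hcov h1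
  simp at h2

/-- The elementary unipotent matrix `1 + t E_{jk}`. -/
lemma dense_not_diag {n : ℕ} (M : Matrix (Fin n) (Fin n) ℝ)
    (hM : ¬ ∃ c : ℝ, M = c • (1 : Matrix (Fin n) (Fin n) ℝ)) :
    IsOpen {g : SL n | ¬ (mat g⁻¹ * M * mat g).IsDiag} ∧
    Dense {g : SL n | ¬ (mat g⁻¹ * M * mat g).IsDiag} := by
  have hcont : Continuous fun g : SL n =>
      mat g⁻¹ * M * mat g :=
    ((continuous_mat.comp continuous_inv).mul continuous_const).mul continuous_mat
  constructor
  · have hcl : IsClosed {A : Matrix (Fin n) (Fin n) ℝ | A.IsDiag} := by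
      have : {A : Matrix (Fin n) (Fin n) ℝ | A.IsDiag} =
          ⋂ i, ⋂ j, ⋂ (_ : i ≠ j), {A : Matrix (Fin n) (Fin n) ℝ | A i j = 0} := by
        ext A
        simp only [mem_ofPred_eq, mem_iInter]
        exact ⟨fun h i j hij => h hij, fun h i j hij => h i j hij⟩
      rw [this]
      refine isClosed_iInter fun i => isClosed_iInter fun j => isClosed_iInter fun _ => ?_
      exact isClosed_eq (by fun_prop) continuous_const
    exact (hcl.preimage hcont).isOpen_compl
  · intro g0
    by_cases h0 : (mat g0⁻¹ * M * mat g0).IsDiag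
    swap
    · exact subset_closure h0
    set D := mat g0⁻¹ * M * mat g0 with hD
    have hne : ∃ j k, D j j ≠ D k k := by
      by_contra hall
      push Not at hall
      apply hM
      rcases isEmpty_or_nonempty (Fin n) with he | ⟨⟨i0⟩⟩
      · exact ⟨0, Subsingleton.elim _ _⟩
      refine ⟨D i0 i0, ?_⟩
      have hDs : D = D i0 i0 • (1 : Matrix (Fin n) (Fin n) ℝ) := by
        ext i j
        by_cases hij : i = j
        · subst hij; simp [hall i i0]
        · simp [h0 hij, Matrix.one_apply_ne hij]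
      have h1 : mat g0 * mat g0⁻¹ = 1 := mat_mul_inv g0
      have : M = mat g0 * D *
          mat g0⁻¹ := by
        rw [hD]
        calc M = (mat g0 * mat g0⁻¹) * M *
            (mat g0 * mat g0⁻¹) := by
              rw [h1]; simp
          _ = _ := by simp only [Matrix.mul_assoc]
      rw [this]
      conv_lhs => rw [hDs]
      rw [Matrix.mul_smul, Matrix.smul_mul, Matrix.mul_one, h1]
    obtain ⟨j, k, hjk⟩ := hne
    have hjk' : j ≠ k := fun h => hjk (by rw [h])
    let E : ℝ → SL n := fun t => ⟨transvection j k t, det_transvection_of_ne j k hjk' t⟩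
    have hEc : Continuous E := by
      refine Continuous.subtype_mk ?_ _
      refine continuous_matrix fun a b => ?_
      simp only [transvection, Matrix.add_apply, Matrix.single_apply]
      split_ifs <;> fun_prop
    have hE0 : E 0 = 1 := by
      apply mat_inj
      simp [E, mat]
    have hEinv : ∀ t, (E t)⁻¹ = E (-t) := by
      intro t
      rw [inv_eq_iff_mul_eq_one]
      apply mat_inj
      rw [mat_mul, mat_one]
      change transvection j k t * transvection j k (-t) = 1
      rw [transvection_mul_transvection_same _ _ hjk']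
      simp
    have htend : Tendsto (fun t => g0 * E t) (𝓝[≠] 0) (𝓝 g0) := by
      have : Continuous fun t => g0 * E t := continuous_const.mul hEc
      have h2 := this.tendsto 0
      rw [hE0, mul_one] at h2
      exact h2.mono_left nhdsWithin_le_nhds
    refine mem_closure_of_tendsto htend ?_
    filter_upwards [self_mem_nhdsWithin] with t ht
    intro hdiag
    have hent := hdiag hjk'
    have heq : mat (g0 * E t)⁻¹ * M * mat (g0 * E t) =
        transvection j k (-t) * D * transvection j k t := by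
      rw [_root_.mul_inv_rev, hEinv, mat_mul, mat_mul, hD]
      simp only [Matrix.mul_assoc]
      rfl
    rw [heq] at hent
    rw [mul_transvection_apply_same, transvection_mul_apply_same, transvection_mul_apply_same,
      h0 hjk', h0 hjk'.symm] at hent
    have : t * (D j j - D k k) = 0 := by linarith
    rcases mul_eq_zero.1 this with h | h
    · exact ht h
    · exact hjk (by linarith)

lemma exists_good_open (n : ℕ) (B : ℝ) : ∃ U : Set (SL n), IsOpen U ∧ U.Nonempty ∧
    ∀ g ∈ U, ∀ d : Fin n → ℝ, (∀ j, |d j| ≤ B) → ∀ M : Matrix (Fin n) (Fin n) ℤ,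
      M.map (fun z : ℤ => (z : ℝ)) * mat g = mat g * diagonal d →
      ∀ j, ∃ c : ℤ, d j = c := by
  obtain ⟨V, hVc, hV⟩ := exists_compact_mem_nhds (1 : SL n)
  have hbox : IsCompact {d : Fin n → ℝ | ∀ j, d j ∈ Icc (-B) B} :=
    isCompact_pi_infinite fun _ => isCompact_Icc
  have hcont : Continuous fun p : SL n × (Fin n → ℝ) =>
      mat p.1 * diagonal p.2 *
        mat p.1⁻¹ :=
    ((continuous_mat.comp continuous_fst).mul
      (Continuous.matrix_diagonal continuous_snd)).mul
      (continuous_mat.comp (continuous_inv.comp continuous_fst))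
  have hK := (hVc.prod hbox).image hcont
  have hF := finite_int_matrices hK
  set F := {M : Matrix (Fin n) (Fin n) ℤ | M.map (fun z : ℤ => (z : ℝ)) ∈
    (fun p : SL n × (Fin n → ℝ) => mat p.1 * diagonal p.2 *
        mat p.1⁻¹) ''
        (V ×ˢ {d : Fin n → ℝ | ∀ j, d j ∈ Icc (-B) B})} with hFdef
  let F' := {M ∈ F | ¬ ∃ c : ℝ, M.map (fun z : ℤ => (z : ℝ)) =
    c • (1 : Matrix (Fin n) (Fin n) ℝ)}
  have hF' : F'.Finite := hF.subset fun M hM => hM.1
  let W : Matrix (Fin n) (Fin n) ℤ → Set (SL n) := fun M =>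
    {g : SL n | ¬ (mat g⁻¹ *
      M.map (fun z : ℤ => (z : ℝ)) * mat g).IsDiag}
  have hWo : IsOpen (⋂ M ∈ F', W M) := hF'.isOpen_biInter fun M hM => (dense_not_diag _ hM.2).1
  have hWd : Dense (⋂ M ∈ F', W M) :=
    dense_biInter_of_isOpen (fun M hM => (dense_not_diag _ hM.2).1) hF'.countable
      (fun M hM => (dense_not_diag _ hM.2).2)
  refine ⟨interior V ∩ ⋂ M ∈ F', W M, isOpen_interior.inter hWo,
    hWd.inter_open_nonempty _ isOpen_interior ⟨1, mem_interior_iff_mem_nhds.2 hV⟩, ?_⟩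
  rintro g ⟨hgV, hgW⟩ d hd M hM j
  have h1 : mat g * mat g⁻¹ = 1 := mat_mul_inv g
  have h2 : mat g⁻¹ * mat g = 1 := mat_inv_mul g
  have hMF : M ∈ F := by
    refine ⟨(g, d), ⟨interior_subset hgV, fun j => abs_le.1 (hd j)⟩, ?_⟩
    simp only
    rw [← hM, Matrix.mul_assoc, h1, Matrix.mul_one]
  have hD : mat g⁻¹ * M.map (fun z : ℤ => (z : ℝ)) * mat g =
      diagonal d := by
    rw [Matrix.mul_assoc, hM, ← Matrix.mul_assoc, h2, Matrix.one_mul]
  by_cases hs : ∃ c : ℝ, M.map (fun z : ℤ => (z : ℝ)) = c • (1 : Matrix (Fin n) (Fin n) ℝ)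
  · obtain ⟨c, hc⟩ := hs
    refine ⟨M j j, ?_⟩
    have e1 : (M j j : ℝ) = c := by
      have := congrFun (congrFun hc j) j
      simpa using this
    rw [hc, Matrix.mul_smul, Matrix.smul_mul, Matrix.mul_one, h2] at hD
    have := congrFun (congrFun hD j) j
    simp at this
    rw [e1, this]
  · exfalso
    have := mem_iInter₂.1 hgW M ⟨hMF, hs⟩
    apply this
    rw [hD]
    exact isDiag_diagonal d

end Vale.Agent.P007
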