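import Mathlib

open NumberField Module IntermediateField

namespace Vale.Agent.P007

lemma exists_subgroup_cyclic {G : Type} [Group G] [Finite G] [IsCyclic G] (b : ℕ)
    (hb : 2 * b ∣ Nat.card G) :
    ∃ H : Subgroup G, H.index = b ∧ ∀ τ : G, τ * τ = 1 → τ ∈ H := by
  obtain ⟨g, hg⟩ := IsCyclic.exists_generator (α := G)
  have hord : orderOf g = Nat.card G := orderOf_eq_card_of_forall_mem_zpowers hg
  have hb' : b ∣ Nat.card G := Dvd.dvd.trans (Dvd.intro_left 2 rfl) hb
  have hpos : 0 < Nat.card G := Nat.card_pos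
  have hb0 : b ≠ 0 := by
    rintro rfl
    rw [zero_dvd_iff] at hb'
    omega
  refine ⟨Subgroup.zpowers (g ^ b), ?_, ?_⟩
  · have h1 := (Subgroup.zpowers (g ^ b)).card_mul_index
    rw [Nat.card_zpowers, orderOf_pow_of_dvd hb0 (hord ▸ hb'), hord] at h1
    obtain ⟨c, hc⟩ := hb'
    have hc0 : c ≠ 0 := by
      rintro rfl
      omega
    rw [hc, Nat.mul_div_cancel_left _ (Nat.pos_of_ne_zero hb0), mul_comm b c] at h1
    exact Nat.eq_of_mul_eq_mul_left (Nat.pos_of_ne_zero hc0) h1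
  · intro τ hτ
    obtain ⟨k, rfl⟩ := Subgroup.mem_zpowers_iff.1 (hg τ)
    rw [← zpow_add, ← orderOf_dvd_iff_zpow_eq_one, hord] at hτ
    have h2 : ((2 * b : ℕ) : ℤ) ∣ k + k := Dvd.dvd.trans (Int.natCast_dvd_natCast.2 hb) hτ
    have h3 : (b : ℤ) ∣ k := by
      rw [← two_mul] at h2
      push_cast at h2
      exact (mul_dvd_mul_iff_left (two_ne_zero)).1 h2
    obtain ⟨c, rfl⟩ := h3
    refine Subgroup.mem_zpowers_iff.2 ⟨c, ?_⟩
    rw [← zpow_natCast, ← zpow_mul]

set_option backward.isDefEq.respectTransparency false in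
lemma exists_abstract_field (p b : ℕ) (hp : p.Prime) (hb : 2 * b ∣ p - 1) :
    ∃ (L : Type) (_ : Field L) (_ : NumberField L), IsGalois ℚ L ∧ IsTotallyReal L ∧
      finrank ℚ L = b ∧ ∃ k : ℕ, (discr L).natAbs = p ^ k := by
  have : Fact p.Prime := ⟨hp⟩
  have : NeZero p := ⟨hp.ne_zero⟩
  let C := CyclotomicField p ℚ
  have : NumberField C := IsCyclotomicExtension.numberField {p} ℚ C
  have : IsAbelianGalois ℚ C := IsCyclotomicExtension.isAbelianGalois {p} ℚ C
  have e := IsCyclotomicExtension.Rat.galEquivZMod p C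
  have : IsCyclic Gal(C/ℚ) := isCyclic_of_surjective e.symm e.symm.surjective
  have hcard : Nat.card Gal(C/ℚ) = p - 1 := by
    rw [Nat.card_congr e.toEquiv, Nat.card_eq_fintype_card, ZMod.card_units]
  obtain ⟨H, hHi, hH⟩ := exists_subgroup_cyclic (G := Gal(C/ℚ)) b (hcard ▸ hb)
  let L := IntermediateField.fixedField H
  refine ⟨L, inferInstance, inferInstance, inferInstance, ?_, ?_, ?_⟩
  · have : IsTotallyReal L.toSubfield := by
      rw [isTotallyReal_iff_le_maximalRealSubfield]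
      intro x hx φ
      obtain ⟨σ, hσ⟩ := ComplexEmbedding.exists_comp_symm_eq_of_comp_eq (k := ℚ) φ
        (ComplexEmbedding.conjugate φ) (by ext; simp)
      have hc : ComplexEmbedding.IsConj φ σ.symm := hσ.symm
      have h2 : σ.symm * σ.symm = 1 := by
        ext y
        exact ComplexEmbedding.isConj_apply_apply hc y
      have hx' : σ.symm x = x := hx ⟨σ.symm, hH _ h2⟩
      rw [← hc.eq x, hx']
    exact this
  · rw [IntermediateField.finrank_eq_fixingSubgroup_index, IntermediateField.fixingSubgroup_fixedField, hHi]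
  · have h1 : discr L ∣ discr C := discr_dvd_discr L C
    rw [IsCyclotomicExtension.Rat.discr_prime p C] at h1
    have h2 := Int.natAbs_dvd_natAbs.2 h1
    simp only [Int.natAbs_mul, Int.natAbs_pow, Int.reduceNeg, IsUnit.neg_iff, isUnit_one,
      Int.natAbs_of_isUnit, one_pow, Int.natAbs_natCast, one_mul] at h2
    obtain ⟨k, -, hk⟩ := (Nat.dvd_prime_pow hp).1 h2
    exact ⟨k, hk⟩

lemma exists_intermediate_field (p b : ℕ) (hp : p.Prime) (hb : 2 * b ∣ p - 1) :
    ∃ (L : IntermediateField ℚ (AlgebraicClosure ℚ)) (_ : NumberField L), IsGalois ℚ L ∧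
      IsTotallyReal L ∧ finrank ℚ L = b ∧ ∃ k : ℕ, (discr L).natAbs = p ^ k := by
  obtain ⟨L, _, _, hG, hR, hf, k, hk⟩ := exists_abstract_field p b hp hb
  let φ : L →ₐ[ℚ] AlgebraicClosure ℚ := IsAlgClosed.lift
  let e : L ≃ₐ[ℚ] φ.fieldRange := φ.equivFieldRange
  have : NumberField φ.fieldRange := NumberField.of_ringEquiv L _ e.toRingEquiv
  refine ⟨φ.fieldRange, this, IsGalois.of_algEquiv e, IsTotallyReal.ofRingEquiv e.toRingEquiv,
    ?_, k, ?_⟩
  · rw [← e.toLinearEquiv.finrank_eq, hf]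
  · rw [← discr_eq_discr_of_algEquiv L e, hk]

lemma nonempty_ordering (K : Type) [Field K] [NumberField K] [IsTotallyReal K] (n : ℕ)
    (h : finrank ℚ K = n) : Nonempty (Fin n ≃ (K →+* ℝ)) := by
  have e : (K →+* ℝ) ≃ (K →+* ℂ) := by
    refine Equiv.ofBijective (fun φ => Complex.ofRealHom.comp φ) ⟨?_, ?_⟩
    · intro φ ψ hh
      ext x
      have := RingHom.congr_fun hh x
      simpa using this
    · intro ψ
      refine ⟨(IsTotallyReal.complexEmbedding_isReal ψ).embedding, ?_⟩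
      ext x
      simp
  have hc : Fintype.card (K →+* ℂ) = n := by rw [NumberField.Embeddings.card, h]
  exact ⟨((Fintype.equivFinOfCardEq hc).symm).trans e.symm⟩

lemma exists_integral_not_int (F : Type) [Field F] [NumberField F] (h : 1 < finrank ℚ F) :
    ∃ α : F, IsIntegral ℤ α ∧ ∀ z : ℤ, α ≠ z := by
  have hx : ∃ x : F, x ∉ (⊥ : Subalgebra ℚ F) := by
    by_contra hall
    push Not at hall
    have : (⊥ : Subalgebra ℚ F) = ⊤ := eq_top_iff.2 fun x _ => hall x
    rw [Subalgebra.bot_eq_top_iff_finrank_eq_one] at this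
    omega
  obtain ⟨x, hx⟩ := hx
  have halg : IsAlgebraic ℤ x :=
    (IsFractionRing.isAlgebraic_iff ℤ ℚ F).2 (Algebra.IsAlgebraic.isAlgebraic x)
  obtain ⟨y, hy0, hy⟩ := halg.exists_integral_multiple
  refine ⟨y • x, hy, fun z hz => hx ?_⟩
  rw [Algebra.mem_bot]
  refine ⟨(z : ℚ) / y, ?_⟩
  have hy' : (y : F) ≠ 0 := by exact_mod_cast hy0
  rw [zsmul_eq_mul] at hz
  simp only [eq_ratCast, Rat.cast_div, Rat.cast_intCast]
  rw [← hz]
  field_simp

set_option backward.isDefEq.respectTransparency false in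
theorem exists_fields (a b : ℕ) (ha : 2 ≤ a) (hb : 2 ≤ b) :
    ∃ (B : ℝ), ∀ N : ℕ, ∃ (K : Type) (_ : Field K) (_ : NumberField K), IsTotallyReal K ∧
      finrank ℚ K = a * b ∧ (N : ℤ) ≤ |discr K| ∧
      ∃ α : K, IsIntegral ℤ α ∧ (∀ z : ℤ, α ≠ z) ∧ ∀ φ : K →+* ℝ, |φ α| ≤ B := by
  obtain ⟨q, hq, -, hqm⟩ := Nat.exists_prime_gt_modEq_one (k := 2 * a) 0 (by omega)
  have hqd : 2 * a ∣ q - 1 := (Nat.modEq_iff_dvd' hq.one_le).1 hqm.symm
  obtain ⟨F, _, hFG, hFR, hFf, k, hk⟩ := exists_intermediate_field q a hq hqd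
  obtain ⟨α, hαi, hαz⟩ := exists_integral_not_int F (by omega)
  have hfin : (Set.range fun φ : F →+* ℝ => |φ α|).Finite := Set.finite_range _
  obtain ⟨B, hB⟩ := hfin.bddAbove
  refine ⟨B, fun N => ?_⟩
  obtain ⟨p, hp, hpN, hpm⟩ := Nat.exists_prime_gt_modEq_one (k := 2 * b) (max N q) (by omega)
  have hpd : 2 * b ∣ p - 1 := (Nat.modEq_iff_dvd' hp.one_le).1 hpm.symm
  obtain ⟨L, _, hLG, hLR, hLf, l, hl⟩ := exists_intermediate_field p b hp hpd
  have hpq : q ≠ p := by
    have := le_max_right N q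
    omega
  have hcop : IsCoprime (discr F) (discr L) := by
    rw [Int.isCoprime_iff_gcd_eq_one, Int.gcd_eq_natAbs, hk, hl]
    exact Nat.coprime_pow_primes k l hq hp hpq
  have hdisj : F.LinearDisjoint L := by
    apply IntermediateField.LinearDisjoint.of_inf_eq_bot
    have : FiniteDimensional ℚ ↥(F ⊓ L) :=
      FiniteDimensional.of_injective (IntermediateField.inclusion inf_le_left).toLinearMap
        (IntermediateField.inclusion_injective (inf_le_left : F ⊓ L ≤ F))
    have : NumberField ↥(F ⊓ L) := {}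
    let _ : Algebra ↥(F ⊓ L) F := (IntermediateField.inclusion inf_le_left).toAlgebra
    let _ : Algebra ↥(F ⊓ L) L := (IntermediateField.inclusion inf_le_right).toAlgebra
    have hu : IsUnit (discr ↥(F ⊓ L)) :=
      hcop.isUnit_of_dvd' (discr_dvd_discr _ _) (discr_dvd_discr _ _)
    by_contra hne
    have : 1 < finrank ℚ ↥(F ⊓ L) := by
      refine Nat.one_lt_iff_ne_zero_and_ne_one.mpr ⟨Module.finrank_pos.ne', ?_⟩
      rwa [ne_eq, IntermediateField.finrank_eq_one_iff]
    have h2 := abs_discr_gt_two this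
    rw [Int.isUnit_iff_abs_eq] at hu
    omega
  have : NumberField ↥(F ⊔ L) := {}
  let _ : Algebra L ↥(F ⊔ L) := (IntermediateField.inclusion le_sup_right).toAlgebra
  refine ⟨↥(F ⊔ L), inferInstance, this, ?_, ?_, ?_, IntermediateField.inclusion le_sup_left α,
    ?_, ?_, ?_⟩
  · have h1 : IsTotallyReal F.toSubfield := hFR
    have h2 : IsTotallyReal L.toSubfield := hLR
    have h3 : IsTotallyReal (F ⊔ L).toSubfield := by
      rw [IntermediateField.sup_toSubfield]
      infer_instance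
    exact h3
  · rw [hdisj.finrank_sup, hFf, hLf]
  · have h1 : discr L ∣ discr ↥(F ⊔ L) := discr_dvd_discr _ _
    have h2 := abs_discr_gt_two (K := L) (by omega)
    have h3 : (discr L).natAbs ≤ (discr ↥(F ⊔ L)).natAbs :=
      Int.natAbs_le_of_dvd_ne_zero h1 (discr_ne_zero _)
    have hl0 : l ≠ 0 := by
      rintro rfl
      rw [Int.abs_eq_natAbs, hl] at h2
      simp at h2
    have h4 : p ≤ p ^ l := Nat.le_self_pow hl0 p
    have h5 := le_max_left N q
    rw [Int.abs_eq_natAbs]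
    exact_mod_cast (by omega : N ≤ (discr ↥(F ⊔ L)).natAbs)
  · exact hαi.map (IntermediateField.inclusion (le_sup_left : F ≤ F ⊔ L)).toRingHom.toIntAlgHom
  · intro z hz
    apply hαz z
    apply IntermediateField.inclusion_injective (le_sup_left : F ≤ F ⊔ L)
    rw [hz, map_intCast]
  · intro φ
    exact hB ⟨φ.comp (IntermediateField.inclusion (le_sup_left : F ≤ F ⊔ L)).toRingHom, rfl⟩

end Vale.Agent.P007
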