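import Vale.Agent.P007.Avoid
import Vale.Agent.P007.Fields

open Matrix MeasureTheory Topology Set Filter CompactlySupported NumberField Module

namespace Vale.Agent.P007

lemma exists_mul_mem_of_isOrder {K : Type} [Field K] [NumberField K] {O : Subring K}
    (hO : IsOrder O) (x : K) : ∃ N : ℕ, N ≠ 0 ∧ (N : K) * x ∈ O := by
  have hx : x ∈ Submodule.span ℚ (O : Set K) := by rw [hO.2]; trivial
  induction hx using Submodule.span_induction with
  | mem x hx => exact ⟨1, one_ne_zero, by simpa using hx⟩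
  | zero => exact ⟨1, one_ne_zero, by simp⟩
  | add x y _ _ hx hy =>
    obtain ⟨N, hN, hx⟩ := hx
    obtain ⟨M, hM, hy⟩ := hy
    refine ⟨N * M, mul_ne_zero hN hM, ?_⟩
    have : ((N * M : ℕ) : K) * (x + y) = (M : K) * ((N : K) * x) + (N : K) * ((M : K) * y) := by
      push_cast; ring
    rw [this]
    exact O.add_mem (O.mul_mem (natCast_mem O M) hx) (O.mul_mem (natCast_mem O N) hy)
  | smul a x _ hx =>
    obtain ⟨N, hN, hx⟩ := hx
    refine ⟨N * a.den, mul_ne_zero hN a.den_nz, ?_⟩
    have : ((N * a.den : ℕ) : K) * (a • x) = (a.num : K) * ((N : K) * x) := by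
      have h1 : ((a.den : ℚ) : K) * (a : K) = ((a.num : ℚ) : K) := by
        rw [← Rat.cast_mul, Rat.den_mul_eq_num]
      rw [Rat.smul_def]
      push_cast at h1 ⊢
      rw [← h1]; ring
    rw [this]
    exact O.mul_mem (intCast_mem O a.num) hx

lemma index_ne_zero_of_isOrder {K : Type} [Field K] [NumberField K] {O : Subring K}
    (hO : IsOrder O) (F : IntermediateField ℚ K) :
    ((O.comap (algebraMap F K)).comap (algebraMap (𝓞 F) F)).toAddSubgroup.index ≠ 0 := by
  set H := ((O.comap (algebraMap F K)).comap (algebraMap (𝓞 F) F)).toAddSubgroup with hH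
  have hfg : AddGroup.FG (𝓞 F ⧸ H) := by
    have : AddGroup.FG (𝓞 F) := Module.Finite.iff_addGroup_fg.1 inferInstance
    exact QuotientAddGroup.fg H
  have htors : IsAddTorsion (𝓞 F ⧸ H) := by
    intro y
    obtain ⟨y, rfl⟩ := QuotientAddGroup.mk_surjective y
    obtain ⟨N, hN, hmem⟩ := exists_mul_mem_of_isOrder hO (algebraMap F K (algebraMap (𝓞 F) F y))
    rw [isOfFinAddOrder_iff_nsmul_eq_zero]
    refine ⟨N, Nat.pos_of_ne_zero hN, ?_⟩
    rw [← QuotientAddGroup.mk_nsmul, QuotientAddGroup.eq_zero_iff, hH]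
    simpa using hmem
  have : Finite (𝓞 F ⧸ H) := AddCommGroup.finite_of_fg_isAddTorsion _ htors
  exact AddSubgroup.index_ne_zero_of_finite

lemma exists_small_element (D : ℕ) : ∃ B : ℝ, ∀ (K : Type) [Field K] [NumberField K]
    [IsTotallyReal K] (O : Subring K) (F : IntermediateField ℚ K), IsOrder O → F ≠ ⊥ →
    orderDisc (O.comap (algebraMap F K)) ≤ D →
    ∃ α ∈ O, (∀ z : ℤ, α ≠ z) ∧ ∀ φ : K →+* ℝ, |φ α| ≤ B := by
  refine ⟨D * max (hermiteTheorem.boundOfDiscBdd D : ℝ) 1, ?_⟩
  intro K _ _ _ O F hO hF hD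
  set H := ((O.comap (algebraMap F K)).comap (algebraMap (𝓞 F) F)).toAddSubgroup with hH
  have hm : H.index ≠ 0 := index_ne_zero_of_isOrder hO F
  have hd : (discr F).natAbs ≠ 0 := Int.natAbs_ne_zero.2 (discr_ne_zero F)
  have hD' : (discr F).natAbs * H.index ^ 2 ≤ D := hD
  have h1 : (discr F).natAbs ≤ D :=
    le_trans (Nat.le_mul_of_pos_right _ (pow_pos (Nat.pos_of_ne_zero hm) 2)) hD'
  have h2 : H.index ≤ D :=
    le_trans (le_trans (Nat.le_self_pow two_ne_zero _)
      (Nat.le_mul_of_pos_left _ (Nat.pos_of_ne_zero hd))) hD'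
  have h3 : |discr F| ≤ (D : ℤ) := by
    rw [Int.abs_eq_natAbs]; exact_mod_cast h1
  have hmk := hermiteTheorem.minkowskiBound_lt_boundOfDiscBdd h3
  obtain ⟨w0⟩ : Nonempty (InfinitePlace F) := inferInstance
  obtain ⟨a, ha, hab⟩ := mixedEmbedding.exists_primitive_element_lt_of_isReal F
    (IsTotallyReal.isReal w0) (B := hermiteTheorem.boundOfDiscBdd D)
    (hmk.trans_le (le_mul_of_one_le_left (by simp)
      (by exact_mod_cast mixedEmbedding.one_le_convexBodyLTFactor F)))
  have hmem : H.index • a ∈ H := H.nsmul_index_mem a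
  refine ⟨algebraMap F K (algebraMap (𝓞 F) F (H.index • a)), hmem, ?_, ?_⟩
  · intro z hz
    apply hF
    have hz' : (H.index : F) * (a : F) = z := by
      apply (algebraMap F K).injective
      simpa using hz
    have hidx : (H.index : F) ≠ 0 := by exact_mod_cast hm
    have hab' : (a : F) ∈ (⊥ : IntermediateField ℚ F) := by
      rw [IntermediateField.mem_bot]
      refine ⟨(z : ℚ) / H.index, ?_⟩
      simp only [eq_ratCast, Rat.cast_div, Rat.cast_intCast, Rat.cast_natCast]
      rw [← hz']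
      field_simp
    have htop : (⊤ : IntermediateField ℚ F) = ⊥ := by
      rw [← ha, IntermediateField.adjoin_simple_eq_bot_iff]
      exact hab'
    rw [← IntermediateField.finrank_eq_one_iff]
    rw [← IntermediateField.bot_eq_top_iff_finrank_eq_one]
    exact htop.symm
  · intro φ
    let ψ : F →+* ℂ := Complex.ofRealHom.comp (φ.comp (algebraMap F K))
    have h4 := hab (InfinitePlace.mk ψ)
    rw [InfinitePlace.apply] at h4
    have h5 : ‖ψ a‖ = |φ (algebraMap F K a)| := by
      simp [ψ]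
    rw [h5] at h4
    have h6 : φ (algebraMap F K (algebraMap (𝓞 F) F (H.index • a))) =
        H.index * φ (algebraMap F K a) := by
      simp
    rw [h6, abs_mul, Nat.abs_cast]
    have h7 : (H.index : ℝ) ≤ D := by exact_mod_cast h2
    have h8 : |φ (algebraMap F K a)| ≤ max (hermiteTheorem.boundOfDiscBdd D : ℝ) 1 := by
      simpa only [NNReal.coe_max, NNReal.coe_one] using h4.le
    exact mul_le_mul h7 h8 (abs_nonneg _) (Nat.cast_nonneg _)

theorem necessary (n D : ℕ) (hn : 1 ≤ n) : ∃ f : C_c(X n, ℝ),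
    (∀ x, 0 ≤ f x) ∧ (∀ m : Measure (X n), IsInvProb m → 0 < ∫ x, f x ∂m) ∧
    ∀ (K : Type) [Field K] [NumberField K] (O : Subring K) (σ : Fin n ≃ (K →+* ℝ))
      (F : IntermediateField ℚ K), IsTotallyReal K → IsOrder O → F ≠ ⊥ →
      orderDisc (O.comap (algebraMap F K)) ≤ D → ∀ x ∈ packet O σ, f x = 0 := by
  obtain ⟨B, hB⟩ := exists_small_element D
  obtain ⟨f, hf0, hfm, hf⟩ := exists_test_function n hn B
  refine ⟨f, hf0, hfm, ?_⟩
  intro K _ _ O σ F hK hO hF hD
  obtain ⟨α, hα, hαz, hαB⟩ := hB K O F hO hF hD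
  exact hf K O σ α hα hαz fun j => hαB (σ j)

lemma packet_nonempty {n : ℕ} (hn : 1 ≤ n) (K : Type) [Field K] [NumberField K]
    (h : finrank ℚ K = n) (σ : Fin n ≃ (K →+* ℝ)) :
    (packet (integralClosure ℤ K).toSubring σ).Nonempty := by
  have hcard : Fintype.card (Free.ChooseBasisIndex ℤ (𝓞 K)) = n := by
    rw [← h, ← RingOfIntegers.rank, finrank_eq_card_chooseBasisIndex]
  let e := Fintype.equivFinOfCardEq hcard
  let b : Basis (Fin n) ℚ K := (integralBasis K).reindex e
  have hb : ∀ x : K, x ∈ Submodule.span ℤ (Set.range b) ↔ IsIntegral ℤ x := by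
    intro x
    have : Set.range b = Set.range (integralBasis K) := (integralBasis K).range_reindex e
    rw [this, mem_span_integralBasis]
    constructor
    · rintro ⟨y, rfl⟩
      exact y.isIntegral_coe
    · intro hx
      exact ⟨⟨x, hx⟩, rfl⟩
  let A : Matrix (Fin n) (Fin n) ℝ := Matrix.of fun i j => σ j (b i)
  have hA : A.det ≠ 0 := by
    intro h0
    obtain ⟨v, hv0, hv⟩ := Matrix.exists_mulVec_eq_zero_iff.2 h0
    have hli := (linearIndependent_algHom_toLinearMap ℚ K ℝ).comp
      (fun j => (σ j).toRatAlgHom) (fun i j hij => σ.injective (by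
        ext x
        exact AlgHom.congr_fun hij x))
    rw [Fintype.linearIndependent_iff] at hli
    apply hv0
    funext j
    refine hli v ?_ j
    apply b.ext
    intro i
    have := congrFun hv i
    simp only [A, Matrix.mulVec, dotProduct, Matrix.of_apply, Pi.zero_apply] at this
    simpa [LinearMap.sum_apply, mul_comm] using this
  let c : ℝ := |A.det| ^ (-(n : ℝ)⁻¹)
  have hc : 0 < c := Real.rpow_pos_of_pos (abs_pos.2 hA) _
  have hcn : c ^ n = |A.det|⁻¹ := by
    have hn' : (n : ℝ) ≠ 0 := by exact_mod_cast (by omega : n ≠ 0)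
    rw [← Real.rpow_natCast, ← Real.rpow_mul (abs_nonneg _), neg_mul, inv_mul_cancel₀ hn',
      Real.rpow_neg_one]
  let w : Fin n → ℝ := Function.update 1 ⟨0, hn⟩ (if 0 < A.det then 1 else -1)
  have hw : ∀ j, w j = 1 ∨ w j = -1 := by
    intro j
    by_cases hj : j = ⟨0, hn⟩
    · subst hj
      simp only [w, Function.update_self]
      split_ifs <;> simp
    · simp [w, Function.update_of_ne hj]
  have hwp : ∏ j, w j = if 0 < A.det then 1 else -1 := by
    simp [w, Finset.prod_update_of_mem]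
  have hdet : (A * diagonal fun j => c * w j).det = 1 := by
    rw [det_mul, det_diagonal, Finset.prod_mul_distrib, Finset.prod_const, Finset.card_univ,
      Fintype.card_fin, hcn, hwp]
    split_ifs with hpos
    · rw [abs_of_pos hpos]; field_simp
    · rw [abs_of_neg (lt_of_le_of_ne (not_lt.1 hpos) hA)]; field_simp
  have hone : ∀ x : K, x ∈ (1 : FractionalIdeal
      (nonZeroDivisors (integralClosure ℤ K).toSubring) K) ↔ IsIntegral ℤ x := by
    intro x
    rw [FractionalIdeal.mem_one_iff]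
    constructor
    · rintro ⟨y, rfl⟩
      exact y.2
    · intro hx
      exact ⟨⟨x, hx⟩, rfl⟩
  refine ⟨coset ⟨_, hdet⟩, ⟨_, hdet⟩, 1, c, w, 0, rfl, ?_, ⟨1, mul_one _⟩, hc, hw, by simp, ?_⟩
  · ext a
    simp only [mem_ofPred_eq, hone]
    constructor
    · intro ha
      have := ha 1 isIntegral_one
      rw [mul_one] at this
      exact this
    · intro ha b hb
      exact IsIntegral.mul ha hb
  · ext y
    simp only [rowLattice, mem_ofPred_eq, hone, ← hb, Submodule.mem_span_range_iff_exists_fun]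
    have key : ∀ v : Fin n → ℤ, (fun i => (v i : ℝ)) ᵥ* (A * diagonal fun j => c * w j) =
        fun j => c * σ j (∑ i, v i • b i) * w j * Real.exp ((0 : Fin n → ℝ) j) := by
      intro v
      ext j
      rw [← Matrix.vecMul_vecMul, Matrix.vecMul_diagonal]
      simp only [Matrix.vecMul, dotProduct, A, Matrix.of_apply, map_sum, zsmul_eq_mul, map_mul,
        map_intCast, Pi.zero_apply, Real.exp_zero]
      ring
    constructor
    · rintro ⟨v, rfl⟩
      exact ⟨_, ⟨v, rfl⟩, key v⟩
    · rintro ⟨_, ⟨v, rfl⟩, rfl⟩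
      exact ⟨v, (key v).symm⟩

theorem composite (n : ℕ) (hn : 4 ≤ n) (hc : ¬ n.Prime) :
    ∃ (K : ℕ → Type) (_ : ∀ i, Field (K i)) (_ : ∀ i, NumberField (K i)),
      (∀ i, IsTotallyReal (K i) ∧ finrank ℚ (K i) = n ∧ Nonempty (Fin n ≃ (K i →+* ℝ)) ∧
        ∀ σ : Fin n ≃ (K i →+* ℝ), (packet (integralClosure ℤ (K i)).toSubring σ).Nonempty) ∧
      Tendsto (fun i => |discr (K i)|) atTop atTop ∧
      ∃ f : C_c(X n, ℝ), (∀ m : Measure (X n), IsInvProb m → 0 < ∫ x, f x ∂m) ∧
        ∀ (i : ℕ) (σ : Fin n ≃ (K i →+* ℝ)),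
          (∀ x ∈ packet (integralClosure ℤ (K i)).toSubring σ, f x = 0) ∧
          ∀ μ : Measure (X n), μ (packet (integralClosure ℤ (K i)).toSubring σ)ᶜ = 0 →
            ∫ x, f x ∂μ = 0 := by
  obtain ⟨a, ha, ha2, han⟩ := Nat.exists_dvd_of_not_prime2 (by omega) hc
  obtain ⟨b, rfl⟩ := ha
  have hb : 2 ≤ b := by
    by_contra hb
    have : b = 0 ∨ b = 1 := by omega
    rcases this with rfl | rfl <;> omega
  obtain ⟨B, hB⟩ := exists_fields a b ha2 hb
  choose K hF hN hR hf hd α hαi hαz hαB using hB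
  obtain ⟨f, -, hfm, hfz⟩ := exists_test_function (a * b) (by omega) B
  refine ⟨K, hF, hN, fun i => ⟨hR i, hf i, ?_, fun σ => packet_nonempty (by omega) _ (hf i) σ⟩,
    tendsto_atTop_mono hd tendsto_natCast_atTop_atTop, f, hfm, fun i σ => ?_⟩
  · have := hR i
    exact nonempty_ordering (K i) _ (hf i)
  · have h0 : ∀ x ∈ packet (integralClosure ℤ (K i)).toSubring σ, f x = 0 :=
      hfz (K i) _ σ (α i) (hαi i) (hαz i) fun j => hαB i (σ j)
    refine ⟨h0, fun μ hμ => ?_⟩
    apply integral_eq_zero_of_ae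
    filter_upwards [show packet (integralClosure ℤ (K i)).toSubring σ ∈ ae μ from hμ] with x hx
    exact h0 x hx

end Vale.Agent.P007
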